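import Vale.Agent.P021.Main

/-! The irrationality exponent of `π` is `2`. -/

theorem Vale.Agent.Results.P021.MuPi.result :
    IsLUB {ν : ℝ | 0 < ν ∧ {pq : ℤ × ℤ | IsCoprime pq.1 pq.2 ∧ 2 ≤ pq.2 ∧
      0 < |Real.pi - (pq.1 : ℝ) / (pq.2 : ℝ)| ∧
      |Real.pi - (pq.1 : ℝ) / (pq.2 : ℝ)| < (pq.2 : ℝ) ^ (-ν)}.Infinite} 2 := by
  refine IsGreatest.isLUB ⟨⟨two_pos, Vale.Agent.P021.infinite_approx⟩, fun ν hν => ?_⟩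
  by_contra h
  exact hν.2 ((Vale.Agent.P021.finite_approx (not_le.1 h)).subset fun pq hpq =>
    ⟨hpq.2.1, hpq.2.2.2⟩)
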